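/-
Helper24 — S0175 project, Part II, package DN (the apex density `rhoA`): the ten statements of
section DN of `Crest/Agent/Helper32/GeomSpec.lean`, verbatim.  Imports the definitions only.
-/
import Crest.Agent.Helper32.GeomDefs

set_option autoImplicit false
set_option linter.unusedSectionVars false
open MeasureTheory Set Filter Topology
open scoped ENNReal ContDiff
open Crest.AnalysisR.OT
open Crest.Agent.Helper32

namespace Crest.Agent.Helper24

/-! ### auxiliary facts -/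

section aux
variable {k : ℕ} (ε : ℝ)

/-- the argument of the bump: positive exactly on the open torus -/
noncomputable def torusFn (ε : ℝ) (x : MS k) : ℝ := ε ^ 2 - (‖x.1‖ ^ 2 - 2 * ε) ^ 2 - ‖x.2‖ ^ 2

/-- the bump `Θ` with `rhoA0 = Θ²` -/
noncomputable def torusBump (ε : ℝ) (x : MS k) : ℝ := expNegInvGlue (torusFn ε x)

/-- the closed torus -/
def closedTorus (ε : ℝ) : Set (MS k) := {x | (‖x.1‖ ^ 2 - 2 * ε) ^ 2 + ‖x.2‖ ^ 2 ≤ ε ^ 2}

theorem rhoA0_eq (x : MS k) : rhoA0 ε x = (torusBump ε x) ^ 2 := rfl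

theorem contDiff_torusFn : ContDiff ℝ ∞ (torusFn (k := k) ε) := by
  have h1 : ContDiff ℝ ∞ (fun x : MS k => ‖x.1‖ ^ 2) :=
    (contDiff_norm_sq ℝ (E := ℂ)).comp contDiff_fst
  have h2 : ContDiff ℝ ∞ (fun x : MS k => ‖x.2‖ ^ 2) :=
    (contDiff_norm_sq ℝ (E := EuclideanSpace ℝ (Fin k))).comp contDiff_snd
  unfold torusFn
  exact ((contDiff_const.sub ((h1.sub contDiff_const).pow 2)).sub h2)

theorem contDiff_torusBump : ContDiff ℝ ∞ (torusBump (k := k) ε) :=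
  expNegInvGlue.contDiff.comp (contDiff_torusFn ε)

theorem torusBump_nonneg (x : MS k) : 0 ≤ torusBump ε x := expNegInvGlue.nonneg _

theorem contDiff_rhoA0 : ContDiff ℝ ∞ (rhoA0 (k := k) ε) := (contDiff_torusBump ε).pow 2

theorem rhoA0_nonneg (x : MS k) : 0 ≤ rhoA0 ε x := sq_nonneg _

theorem torusFn_pos_iff (x : MS k) : 0 < torusFn ε x ↔ x ∈ torus ε := by
  unfold torusFn torus
  show 0 < ε ^ 2 - (‖x.1‖ ^ 2 - 2 * ε) ^ 2 - ‖x.2‖ ^ 2 ↔
    (‖x.1‖ ^ 2 - 2 * ε) ^ 2 + ‖x.2‖ ^ 2 < ε ^ 2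
  constructor <;> intro h <;> linarith

theorem rhoA0_ne_zero_iff (x : MS k) : rhoA0 ε x ≠ 0 ↔ x ∈ torus ε := by
  rw [rhoA0_eq, ← torusFn_pos_iff]
  constructor
  · intro h
    by_contra hn
    exact h (by unfold torusBump; rw [expNegInvGlue.zero_of_nonpos (not_lt.mp hn)]; simp)
  · intro h
    exact pow_ne_zero 2 (expNegInvGlue.pos_of_pos h).ne'

theorem support_rhoA0 : Function.support (rhoA0 (k := k) ε) = torus ε := by
  ext x
  rw [Function.mem_support, rhoA0_ne_zero_iff]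

theorem isOpen_torus' : IsOpen (torus (k := k) ε) := by
  have h1 : Continuous (fun x : MS k => (‖x.1‖ ^ 2 - 2 * ε) ^ 2 + ‖x.2‖ ^ 2) := by fun_prop
  exact isOpen_lt h1 continuous_const

theorem isClosed_closedTorus : IsClosed (closedTorus (k := k) ε) := by
  have h1 : Continuous (fun x : MS k => (‖x.1‖ ^ 2 - 2 * ε) ^ 2 + ‖x.2‖ ^ 2) := by fun_prop
  exact isClosed_le h1 continuous_const

theorem torus_subset_closedTorus : torus (k := k) ε ⊆ closedTorus ε := by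
  intro x hx
  have h : (‖x.1‖ ^ 2 - 2 * ε) ^ 2 + ‖x.2‖ ^ 2 < ε ^ 2 := hx
  exact le_of_lt h

/-- bounds on the closed torus -/
theorem closedTorus_bounds (x : MS k) (hx : x ∈ closedTorus ε) :
    ‖x.1‖ ^ 2 ≤ 2 * ε + |ε| ∧ 2 * ε - |ε| ≤ ‖x.1‖ ^ 2 ∧ ‖x.2‖ ^ 2 ≤ ε ^ 2 := by
  have h : (‖x.1‖ ^ 2 - 2 * ε) ^ 2 + ‖x.2‖ ^ 2 ≤ ε ^ 2 := hx
  have h2 : (‖x.1‖ ^ 2 - 2 * ε) ^ 2 ≤ |ε| ^ 2 := by
    rw [sq_abs]; nlinarith [sq_nonneg ‖x.2‖]
  have h4 := abs_le_of_sq_le_sq' h2 (abs_nonneg ε)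
  refine ⟨by linarith [h4.2], by linarith [h4.1], by nlinarith [sq_nonneg (‖x.1‖ ^ 2 - 2 * ε)]⟩

theorem isCompact_closedTorus : IsCompact (closedTorus (k := k) ε) := by
  refine Metric.isCompact_of_isClosed_isBounded (isClosed_closedTorus ε) ?_
  refine (Metric.isBounded_closedBall (x := (0 : MS k)) (r := 1 + 3 * |ε|)).subset ?_
  intro x hx
  obtain ⟨h1, -, h2⟩ := closedTorus_bounds ε x hx
  rw [mem_closedBall_zero_iff, Prod.norm_def, max_le_iff]
  have habs := abs_nonneg ε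
  have hle := le_abs_self ε
  constructor
  · nlinarith [norm_nonneg x.1, sq_nonneg (‖x.1‖ - 1)]
  · have : ‖x.2‖ ≤ |ε| :=
      (abs_le_of_sq_le_sq' (by rw [sq_abs]; exact h2 : ‖x.2‖ ^ 2 ≤ |ε| ^ 2) (abs_nonneg ε)).2
    linarith

theorem hasCompactSupport_rhoA0 : HasCompactSupport (rhoA0 (k := k) ε) := by
  refine HasCompactSupport.intro (isCompact_closedTorus ε) ?_
  intro x hx
  by_contra h
  exact hx (torus_subset_closedTorus ε ((rhoA0_ne_zero_iff ε x).mp h))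

theorem integrable_rhoA0 : Integrable (rhoA0 (k := k) ε) := by
  have : (volume : Measure (MS k)).IsAddHaarMeasure :=
    inferInstanceAs
      ((volume : Measure ℂ).prod (volume : Measure (EuclideanSpace ℝ (Fin k)))).IsAddHaarMeasure
  exact (contDiff_rhoA0 ε).continuous.integrable_of_hasCompactSupport (hasCompactSupport_rhoA0 ε)

theorem torus_nonempty (hε : 0 < ε) : (torus (k := k) ε).Nonempty := by
  refine ⟨(((Real.sqrt (2 * ε) : ℝ) : ℂ), 0), ?_⟩
  show (‖((Real.sqrt (2 * ε) : ℝ) : ℂ)‖ ^ 2 - 2 * ε) ^ 2 + ‖(0 : EuclideanSpace ℝ (Fin k))‖ ^ 2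
    < ε ^ 2
  rw [Complex.norm_real, Real.norm_eq_abs, sq_abs, Real.sq_sqrt (by positivity), norm_zero]
  nlinarith

theorem integral_rhoA0_pos (hε : 0 < ε) : 0 < ∫ y : MS k, rhoA0 ε y := by
  have : (volume : Measure (MS k)).IsAddHaarMeasure :=
    inferInstanceAs
      ((volume : Measure ℂ).prod (volume : Measure (EuclideanSpace ℝ (Fin k)))).IsAddHaarMeasure
  rw [integral_pos_iff_support_of_nonneg (fun x => rhoA0_nonneg ε x) (integrable_rhoA0 ε),
    support_rhoA0]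
  exact (isOpen_torus' ε).measure_pos _ (torus_nonempty ε hε)

theorem rhoA_eq (x : MS k) : rhoA ε x = rhoA0 ε x / (3 * ∫ y : MS k, rhoA0 ε y) := rfl

end aux

/-! ### the statements of package DN -/

section DN
variable {k : ℕ} (ε : ℝ) (hε : 0 < ε)
include hε

theorem rhoA_nonneg (x : MS k) : 0 ≤ rhoA ε x := by
  rw [rhoA_eq]
  exact div_nonneg (rhoA0_nonneg ε x)
    (mul_pos (by norm_num) (integral_rhoA0_pos (k := k) ε hε)).le

theorem rhoA_contDiff : ContDiff ℝ ∞ (rhoA (k := k) ε) := by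
  unfold rhoA
  exact (contDiff_rhoA0 ε).div_const _

theorem rhoA_sqrt_contDiff : ContDiff ℝ ∞ (fun x : MS k => Real.sqrt (rhoA ε x)) := by
  have h : (fun x : MS k => Real.sqrt (rhoA ε x))
      = fun x : MS k => torusBump ε x / Real.sqrt (3 * ∫ y : MS k, rhoA0 ε y) := by
    funext x
    rw [rhoA_eq, rhoA0_eq, Real.sqrt_div (sq_nonneg _), Real.sqrt_sq (torusBump_nonneg ε x)]
  rw [h]
  exact (contDiff_torusBump ε).div_const _

theorem rhoA_support : Function.support (rhoA (k := k) ε) = torus ε := by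
  have hI := integral_rhoA0_pos (k := k) ε hε
  ext x
  refine Iff.trans ?_ (rhoA0_ne_zero_iff ε x)
  rw [Function.mem_support, rhoA_eq]
  constructor
  · intro h h0
    exact h (by rw [h0, zero_div])
  · intro h
    exact div_ne_zero h (mul_pos (by norm_num) hI).ne'

theorem rhoA_hasCompactSupport : HasCompactSupport (rhoA (k := k) ε) := by
  refine HasCompactSupport.intro (isCompact_closedTorus ε) ?_
  intro x hx
  have h0 : rhoA0 ε x = 0 := by
    by_contra h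
    exact hx (torus_subset_closedTorus ε ((rhoA0_ne_zero_iff ε x).mp h))
  rw [rhoA_eq, h0, zero_div]

theorem rhoA_tsupport :
    tsupport (rhoA (k := k) ε) ⊆ {x | (‖x.1‖ ^ 2 - 2 * ε) ^ 2 + ‖x.2‖ ^ 2 ≤ ε ^ 2} := by
  refine closure_minimal ?_ (isClosed_closedTorus ε)
  rw [rhoA_support ε hε]
  exact torus_subset_closedTorus ε

theorem rhoA_integral : ∫ x : MS k, rhoA ε x = 1 / 3 := by
  have hI := integral_rhoA0_pos (k := k) ε hε
  unfold rhoA
  rw [integral_div]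
  field_simp

theorem rhoA_mass : measOfDensity (rhoA (k := k) ε) univ = 1 / 3 := by
  have hint : Integrable (rhoA (k := k) ε) := by
    unfold rhoA
    exact (integrable_rhoA0 ε).div_const _
  unfold measOfDensity
  rw [withDensity_apply _ MeasurableSet.univ, Measure.restrict_univ,
    ← ofReal_integral_eq_lintegral_ofReal hint (Filter.Eventually.of_forall (rhoA_nonneg ε hε)),
    rhoA_integral ε hε]
  rw [ENNReal.ofReal_div_of_pos (by norm_num)]
  simp

theorem rhoA_rot (t : ℝ) (x : MS k) : rhoA ε (rotM t x) = rhoA ε x := by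
  have h1 : ‖(rotM t x).1‖ = ‖x.1‖ := by
    show ‖Complex.exp (2 * (Real.pi : ℂ) * (t : ℂ) * Complex.I) * x.1‖ = ‖x.1‖
    have e : 2 * (Real.pi : ℂ) * (t : ℂ) * Complex.I = ((2 * Real.pi * t : ℝ) : ℂ) * Complex.I := by
      push_cast; ring
    rw [norm_mul, e, Complex.norm_exp_ofReal_mul_I, one_mul]
  have h2 : (rotM t x).2 = x.2 := rfl
  unfold rhoA rhoA0
  rw [h1, h2]

omit hε in
theorem closedTorus_subset_Adom (s w2 : ℝ) (hp : GoodParams s w2 ε) :
    {x : MS k | (‖x.1‖ ^ 2 - 2 * ε) ^ 2 + ‖x.2‖ ^ 2 ≤ ε ^ 2} ⊆ Adom s w2 := by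
  intro x hx
  have hε := hp.hε
  obtain ⟨h1, h2, h3⟩ := closedTorus_bounds ε x hx
  rw [abs_of_pos hε] at h1 h2
  have hζ : ‖x.1‖ ^ 2 ≤ 3 * ε := by linarith
  have hζ' : 0 < ‖x.1‖ ^ 2 := by linarith
  refine ⟨?_, ?_⟩
  · intro h0
    rw [h0, norm_zero] at hζ'
    norm_num at hζ'
  · unfold shF
    have ha : ‖x.1‖ ^ 2 / (4 * w2 ^ 4) ≤ 3 * ε / (4 * w2 ^ 4) :=
      div_le_div_of_nonneg_right hζ (by positivity)
    have hb : 4 * ‖x.2‖ ^ 2 / (2 * w2 ^ 2 + 1) ^ 2 ≤ 4 * ε ^ 2 / (2 * w2 ^ 2 + 1) ^ 2 :=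
      div_le_div_of_nonneg_right (by linarith) (by positivity)
    have := hp.hdom
    linarith

end DN

end Crest.Agent.Helper24
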