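/-
Helper24 — S0175 project, Part II: `geomH_disj` (statement of section HY of
`Crest/Agent/Helper32/GeomSpec.lean`, verbatim), proved directly from the definitions:
an apex `a` (a torus point) has `‖a.1‖² < 3ε ≤ 3/16`, whereas a base vertex `y = bplus x` has
`‖y.1‖² ≥ (shL23 s w)² / 4 ≥ 1/4`.  Self-contained (imports the definitions only).
-/
import Crest.Agent.Helper32.GeomDefs

set_option autoImplicit false
set_option linter.unusedSectionVars false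
open MeasureTheory Set Filter Topology
open scoped ENNReal ContDiff
open Crest.AnalysisR.OT
open Crest.Agent.Helper32

namespace Crest.Agent.Helper24

theorem wMin_pos' (s : ℝ) : 0 < wMin s := by
  unfold wMin
  have : (0:ℝ) < (2:ℝ) ^ (s + 2) := Real.rpow_pos_of_pos (by norm_num) _
  exact Real.sqrt_pos.mpr (by positivity)

theorem one_le_shL23 (s : ℝ) (hs : 0 < s) (w : ℝ) (hw : 0 < w) (hw' : 2 * w ^ 2 < 1) :
    1 ≤ shL23 s w := by
  unfold shL23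
  have hw1 : w ≤ 1 := by nlinarith
  apply Real.one_le_rpow_of_pos_of_le_one_of_nonpos hw hw1
  have : 0 < 2 / (s + 2) := by positivity
  linarith

/-- the root function always takes values in `[wMin s, w2)` -/
theorem wroot_mem (s w2 ζ e : ℝ) (hw2 : wMin s < w2) :
    wMin s ≤ wroot s w2 ζ e ∧ wroot s w2 ζ e < w2 := by
  unfold wroot
  split_ifs with h
  · exact ⟨(Classical.choose_spec h).1.le, (Classical.choose_spec h).2.1⟩
  · exact ⟨le_rfl, hw2⟩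

/-- `wA` always takes values in `[wMin s, w2)` -/
theorem wA_mem {k : ℕ} (s w2 : ℝ) (hw2 : wMin s < w2) (x : MS k) :
    wMin s ≤ wA s w2 x ∧ wA s w2 x < w2 := wroot_mem s w2 _ _ hw2

/-- `wA` is an admissible shape: `0 < wA` and `2 wA² < 1` -/
theorem wA_shape {k : ℕ} (s w2 : ℝ) (hw2 : wMin s < w2) (hw2' : 2 * w2 ^ 2 < 1)
    (x : MS k) : 0 < wA s w2 x ∧ 2 * (wA s w2 x) ^ 2 < 1 := by
  obtain ⟨h1, h2⟩ := wA_mem s w2 hw2 x
  have h0 : 0 < wA s w2 x := lt_of_lt_of_le (wMin_pos' s) h1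
  refine ⟨h0, ?_⟩
  have : wA s w2 x ^ 2 ≤ w2 ^ 2 := pow_le_pow_left₀ h0.le h2.le 2
  linarith

/-- the in-plane part of a base vertex has modulus at least `1/2` -/
theorem quarter_le_bvert_fst {k : ℕ} (s w σ : ℝ) (hs : 0 < s) (hw : 0 < w) (hw' : 2 * w ^ 2 < 1)
    (hσ : σ ^ 2 = 1) (x : MS k) (hx : x.1 ≠ 0) : 1 / 4 ≤ ‖(bvert s w σ x).1‖ ^ 2 := by
  have hn : 0 < ‖x.1‖ := norm_pos_iff.mpr hx
  have hL := one_le_shL23 s hs w hw hw'
  have e : ‖(bvert s w σ x).1‖ ^ 2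
      = ‖x.1‖ ^ 2 * ((shP w / (2 * w ^ 2)) ^ 2 + (σ * shL23 s w / (2 * ‖x.1‖)) ^ 2) := by
    show ‖x.1 * betaC s w σ ‖x.1‖‖ ^ 2 = _
    rw [norm_mul, mul_pow]
    congr 1
    rw [Complex.sq_norm, Complex.normSq_apply]
    simp only [betaC]
    ring
  have e2 : ‖x.1‖ ^ 2 * (σ * shL23 s w / (2 * ‖x.1‖)) ^ 2 = (shL23 s w) ^ 2 / 4 := by
    field_simp
    rw [hσ]; ring
  rw [e, mul_add, e2]
  have h1 : 0 ≤ ‖x.1‖ ^ 2 * (shP w / (2 * w ^ 2)) ^ 2 := by positivity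
  nlinarith

/-- a torus point has in-plane modulus squared in `(ε, 3ε)` -/
theorem torus_fst_bounds {k : ℕ} (ε : ℝ) (hε : 0 < ε) (x : MS k) (hx : x ∈ torus ε) :
    ε < ‖x.1‖ ^ 2 ∧ ‖x.1‖ ^ 2 < 3 * ε := by
  have h : (‖x.1‖ ^ 2 - 2 * ε) ^ 2 + ‖x.2‖ ^ 2 < ε ^ 2 := hx
  have h2 : (‖x.1‖ ^ 2 - 2 * ε) ^ 2 < ε ^ 2 := by nlinarith [sq_nonneg ‖x.2‖]
  have h3 := abs_lt_of_sq_lt_sq' h2 hε.le
  constructor <;> linarith [h3.1, h3.2]

/-- apexes lie in the torus -/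
theorem PhiA_mem_torus {k : ℕ} (ε : ℝ) (p : ↥(Ybase k ε) × ℝ) : PhiA ε p ∈ torus ε := by
  obtain ⟨h0, h1⟩ := p.1.2
  have hn : ‖(PhiA ε p).1‖ = p.1.1.1 := by
    show ‖Complex.exp (2 * (Real.pi : ℂ) * (p.2 : ℂ) * Complex.I) * ((p.1.1.1 : ℝ) : ℂ)‖ = _
    have e : 2 * (Real.pi : ℂ) * (p.2 : ℂ) * Complex.I
        = ((2 * Real.pi * p.2 : ℝ) : ℂ) * Complex.I := by push_cast; ring
    rw [norm_mul, e, Complex.norm_exp_ofReal_mul_I, one_mul, Complex.norm_real, Real.norm_eq_abs,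
      abs_of_pos h0]
  have hs : (PhiA ε p).2 = p.1.1.2 := rfl
  show (‖(PhiA ε p).1‖ ^ 2 - 2 * ε) ^ 2 + ‖(PhiA ε p).2‖ ^ 2 < ε ^ 2
  rw [hn, hs]
  exact h1

/-- base vertices of torus apexes are outside the torus (no hypotheses on the root function) -/
theorem bplus_not_mem_torus {k : ℕ} (s w2 ε : ℝ) (hp : GoodParams s w2 ε) (x : MS k)
    (hx : x ∈ torus ε) : bplus s w2 x ∉ torus ε := by
  intro hy
  have hε := hp.hε
  have hx1 : x.1 ≠ 0 := by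
    intro h0
    have := (torus_fst_bounds ε hε x hx).1
    rw [h0, norm_zero] at this
    nlinarith
  obtain ⟨hw, hw'⟩ := wA_shape s w2 hp.hw2 hp.hw2' x
  have h1 : 1 / 4 ≤ ‖(bplus s w2 x).1‖ ^ 2 :=
    quarter_le_bvert_fst s (wA s w2 x) 1 hp.hs hw hw' (by norm_num) x hx1
  have h2 := (torus_fst_bounds ε hε _ hy).2
  have := hp.hε1
  linarith

section HY
variable {k : ℕ} (s w2 ε : ℝ) (hp : GoodParams s w2 ε)
include hp

theorem geomH_disj (p q : ↥(Ybase k ε) × ℝ) : PhiA ε p ≠ PhiB s w2 ε q := by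
  intro h
  have h1 : PhiA ε p ∈ torus ε := PhiA_mem_torus ε p
  rw [h] at h1
  exact bplus_not_mem_torus s w2 ε hp (PhiA ε q) (PhiA_mem_torus ε q) h1

end HY

end Crest.Agent.Helper24
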