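/-
Helper24 — S0175 project, Part II, package MS (the two-shell marginal has a smooth density).

`geom_measure_of` : the statement `Spec.geom_measure` of `Crest/Agent/Helper32/GeomSpec.lean`,
proved from the statements of the packages it depends on (DI, CV, RG3, DN, HY-a), which are taken
here as explicit hypotheses.  No placeholder proofs, no import of the Spec file.
-/
import Crest.Agent.Helper32.GeomDefs

set_option autoImplicit false
open MeasureTheory Set Filter Topology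
open scoped ENNReal ContDiff
open Crest.AnalysisR.OT
open Crest.Agent.Helper32

namespace Crest.Agent.Helper24

/-- the volume of the model space `MS k = ℂ × ℝ^k` is an additive Haar measure
(instance search does not find this by itself; needed to apply the CV package on `MS k`). -/
theorem isAddHaarMeasure_volume_MS (k : ℕ) : (volume : Measure (MS k)).IsAddHaarMeasure :=
  inferInstanceAs
    ((volume : Measure ℂ).prod (volume : Measure (EuclideanSpace ℝ (Fin k)))).IsAddHaarMeasure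

/-- `measOfDensity` of `ρ₁ + 2ρ₂` for nonnegative measurable densities. -/
theorem measOfDensity_add_two_mul {E : Type*} [MeasureSpace E] (ρ₁ ρ₂ : E → ℝ)
    (h1 : ∀ x, 0 ≤ ρ₁ x) (h2 : ∀ x, 0 ≤ ρ₂ x) (hm1 : Measurable ρ₁) (hm2 : Measurable ρ₂) :
    measOfDensity (fun x => ρ₁ x + 2 * ρ₂ x)
      = measOfDensity ρ₁ + (2 : ℝ≥0∞) • measOfDensity ρ₂ := by
  unfold measOfDensity
  have h : (fun x => ENNReal.ofReal (ρ₁ x + 2 * ρ₂ x))
      = (fun x => ENNReal.ofReal (ρ₁ x)) + (2 : ℝ≥0∞) • (fun x => ENNReal.ofReal (ρ₂ x)) := by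
    funext x
    simp only [Pi.add_apply, Pi.smul_apply, smul_eq_mul]
    rw [ENNReal.ofReal_add (h1 x) (mul_nonneg (by norm_num) (h2 x)),
      ENNReal.ofReal_mul (by norm_num)]
    norm_num
  rw [h, withDensity_add_left hm1.ennreal_ofReal, withDensity_smul _ hm2.ennreal_ofReal]

/-- **MS**, from the statements of its dependencies:
* `hcov` = conclusion of CV (`cov_density`) for `f = bplus`, `ρ₁ = rhoA`;
* `hbm` (RG3), `hsm`, `hsupp` (DN), `hPm`, `hPmap`, `hPr` (DI), `hdisj` (HY-a). -/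
theorem geom_measure_of {k : ℕ} (s w2 ε : ℝ)
    (hbm : Measurable (bplus (k := k) s w2))
    (hsm : ContDiff ℝ ∞ (rhoA (k := k) ε))
    (hsupp : Function.support (rhoA (k := k) ε) = torus ε)
    (hPm : Measurable (PhiA (k := k) ε))
    (hPmap : (tsΛ (nuG k ε)).map (PhiA ε) = measOfDensity (rhoA (k := k) ε))
    (hPr : range (PhiA (k := k) ε) = torus ε)
    (hdisj : ∀ p q : ↥(Ybase k ε) × ℝ, PhiA ε p ≠ PhiB s w2 ε q)
    (h0 : ∀ x : MS k, 0 ≤ rhoA ε x)
    (hcov : ∃ ρ₂ : MS k → ℝ, (∀ y, 0 ≤ ρ₂ y) ∧ ContDiff ℝ ∞ ρ₂ ∧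
      ContDiff ℝ ∞ (fun y => Real.sqrt (ρ₂ y)) ∧ HasCompactSupport ρ₂ ∧
      Function.support ρ₂ ⊆ bplus s w2 '' (Function.support (rhoA (k := k) ε)) ∧
      (measOfDensity (rhoA (k := k) ε)).map (bplus s w2) = measOfDensity ρ₂) :
    ∃ ρB : MS k → ℝ, (∀ y, 0 ≤ ρB y) ∧ ContDiff ℝ ∞ ρB ∧
      ContDiff ℝ ∞ (fun y => Real.sqrt (ρB y)) ∧ HasCompactSupport ρB ∧
      (∀ y, rhoA ε y * ρB y = 0) ∧
      tsμ (nuG k ε) (PhiA ε) (PhiB s w2 ε) = measOfDensity (fun x => rhoA ε x + ρB x) := by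
  obtain ⟨ρ₂, h2nn, h2sm, h2sq, h2cs, h2supp, h2map⟩ := hcov
  refine ⟨fun y => 2 * ρ₂ y, fun y => mul_nonneg (by norm_num) (h2nn y),
    contDiff_const.mul h2sm, ?_, ?_, ?_, ?_⟩
  · -- smooth square root
    have : (fun y => Real.sqrt (2 * ρ₂ y)) = fun y => Real.sqrt 2 * Real.sqrt (ρ₂ y) := by
      funext y
      rw [Real.sqrt_mul (by norm_num : (0:ℝ) ≤ 2)]
    rw [this]
    exact contDiff_const.mul h2sq
  · -- compact support
    exact (h2cs.mul_left : HasCompactSupport ((fun _ => (2:ℝ)) * ρ₂))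
  · -- disjoint supports
    intro y
    show rhoA ε y * (2 * ρ₂ y) = 0
    by_contra hne
    have hy1 : rhoA ε y ≠ 0 := fun h => hne (by rw [h, zero_mul])
    have hy2 : ρ₂ y ≠ 0 := fun h => hne (by rw [h, mul_zero, mul_zero])
    have hyA : y ∈ range (PhiA (k := k) ε) := by
      rw [hPr, ← hsupp]; exact hy1
    obtain ⟨p, rfl⟩ := hyA
    obtain ⟨x, hx, hxy⟩ := h2supp hy2
    have hxA : x ∈ range (PhiA (k := k) ε) := by
      rw [hPr, ← hsupp]; exact hx
    obtain ⟨q, rfl⟩ := hxA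
    exact hdisj p q hxy.symm
  · -- the measure identity
    have hB : PhiB (k := k) s w2 ε = bplus s w2 ∘ PhiA ε := rfl
    have hmapB : (tsΛ (nuG k ε)).map (PhiB s w2 ε) = measOfDensity ρ₂ := by
      rw [hB, ← Measure.map_map hbm hPm, hPmap, h2map]
    unfold tsμ
    rw [hPmap, hmapB]
    exact (measOfDensity_add_two_mul (rhoA ε) ρ₂ h0 h2nn hsm.continuous.measurable
      h2sm.continuous.measurable).symm

end Crest.Agent.Helper24
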