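/-
Helper24 — S0175 project, Part II, package MS: the two-shell marginal of the concrete instance
has a smooth density.  `geom_measure` is the statement `Spec.geom_measure` of
`Crest/Agent/Helper32/GeomSpec.lean`, verbatim; it is `MSCore.geom_measure_of` applied to the
landed packages DN (own), DI (helper35), CV (helper44), RG1 (helper62), RG3 (helper42) and
`geomH_disj` (own).
-/
import Crest.Agent.Helper24.Geom.MSCore
import Crest.Agent.Helper24.Geom.DN
import Crest.Agent.Helper24.Geom.Disj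
import Crest.Agent.Helper35.Geom.DI
import Crest.Agent.Helper44.Geom.CV
import Crest.Agent.Helper42.Geom.RG3

set_option autoImplicit false
open MeasureTheory Set Filter Topology
open scoped ENNReal ContDiff
open Crest.AnalysisR.OT
open Crest.Agent.Helper32

namespace Crest.Agent.Helper24

section HY
variable {k : ℕ} (s w2 ε : ℝ) (hp : GoodParams s w2 ε)
include hp

/-- MS : the two-shell marginal has a smooth density (DI + CV + RG + DN) -/
theorem geom_measure : ∃ ρB : MS k → ℝ, (∀ y, 0 ≤ ρB y) ∧ ContDiff ℝ ∞ ρB ∧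
    ContDiff ℝ ∞ (fun y => Real.sqrt (ρB y)) ∧ HasCompactSupport ρB ∧
    (∀ y, rhoA ε y * ρB y = 0) ∧
    tsμ (nuG k ε) (PhiA ε) (PhiB s w2 ε) = measOfDensity (fun x => rhoA ε x + ρB x) := by
  have hε := hp.hε
  have hHaar := isAddHaarMeasure_volume_MS k
  exact geom_measure_of s w2 ε
    (Crest.Agent.Helper42.bplus_measurable s w2 hp.hs hp.hw2 hp.hw2')
    (rhoA_contDiff ε hε) (rhoA_support ε hε) (Crest.Agent.Helper35.measurable_PhiA ε hε)
    (Crest.Agent.Helper35.PhiA_map ε hε) (Crest.Agent.Helper35.range_PhiA ε hε)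
    (geomH_disj s w2 ε hp) (rhoA_nonneg ε hε)
    (Crest.Agent.Helper44.cov_density (bplus s w2) (psiPlus s w2) (Adom s w2)
      (Crest.Agent.Helper62.isOpen_Adom s w2 hp.hs hp.hw2 hp.hw2')
      (Crest.Agent.Helper42.bplus_measurable s w2 hp.hs hp.hw2 hp.hw2')
      (Crest.Agent.Helper42.bplus_contDiffOn s w2 hp.hs hp.hw2 hp.hw2')
      (fun x hx => (Crest.Agent.Helper42.psiPlus_bplus s w2 hp.hs hp.hw2 hp.hw2' x hx).2)
      (fun x hx => (Crest.Agent.Helper42.psiPlus_bplus s w2 hp.hs hp.hw2 hp.hw2' x hx).1)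
      (rhoA ε) (rhoA_nonneg ε hε) (rhoA_contDiff ε hε) (rhoA_sqrt_contDiff ε hε)
      (rhoA_hasCompactSupport ε hε)
      ((rhoA_tsupport ε hε).trans (closedTorus_subset_Adom ε s w2 hp)))

end HY

end Crest.Agent.Helper24
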